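import Vale.Agent.P091.CH.H420.Sym

/-!
# Exact discretisation : `P_DISC` and its truncated form  (helper420)
-/

open Finset

namespace Vale.Agent.P091.CH.H420

variable {K : ℕ}

/-! ## sampling -/

lemma ch_natCast_mul (ζ : ℤ) (n : ℕ) (a : X K) : ch ζ ((n : X K) * a) = ch ζ a ^ n := by
  induction n with
  | zero => simp [ch_zero_right]
  | succ n ih =>
    rw [Nat.cast_succ, add_mul, one_mul, ch_add_right, ih, pow_succ]

lemma ch_pt (k j r : ℕ) (ζ : ℤ) :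
    ch ζ (pt K k j r) = ch ζ (((2 ^ (K - k) : ℕ)) : X K) ^ j *
      ch ζ (((2 ^ (K - k - 3) : ℕ)) : X K) ^ r := by
  unfold pt
  rw [← ch_natCast_mul, ← ch_natCast_mul, ← ch_add_right]
  congr 1
  push_cast
  ring

lemma samp (k : ℕ) (hk : k + 3 ≤ K) (ζ : ℤ) (hζ : |ζ| < 2 ^ (k + 3)) :
    ∑ r ∈ range 8, ∑ j ∈ range (2 ^ k), ch ζ (pt K k j r)
      = if ζ = 0 then 8 * 2 ^ k else 0 := by
  set w := ch ζ (((2 ^ (K - k) : ℕ)) : X K) with hw
  set v := ch ζ (((2 ^ (K - k - 3) : ℕ)) : X K) with hv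
  have e1 : ∑ r ∈ range 8, ∑ j ∈ range (2 ^ k), ch ζ (pt K k j r)
      = (∑ r ∈ range 8, v ^ r) * (∑ j ∈ range (2 ^ k), w ^ j) := by
    rw [Finset.sum_mul_sum]
    refine Finset.sum_congr rfl fun r _ => Finset.sum_congr rfl fun j _ => ?_
    rw [ch_pt, mul_comm]
  have hw1 : w ^ (2 ^ k) = 1 := by
    rw [hw, ← ch_natCast_mul]
    have : (((2 ^ k : ℕ)) : X K) * (((2 ^ (K - k) : ℕ)) : X K) = 0 := by
      rw [← Nat.cast_mul, ← pow_add, show k + (K - k) = K by omega]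
      exact ZMod.natCast_self _
    rw [this, ch_zero_right]
  have hv8 : v ^ 8 = w := by
    rw [hv, hw, ← ch_natCast_mul]
    congr 1
    rw [← Nat.cast_mul]
    congr 1
    rw [show (8:ℕ) = 2 ^ 3 by norm_num, ← pow_add]
    congr 1
    omega
  rw [e1]
  by_cases h0 : ζ = 0
  · have hw0 : w = 1 := by rw [hw, h0, ch_zero_left]
    have hv0 : v = 1 := by rw [hv, h0, ch_zero_left]
    rw [if_pos h0, hw0, hv0]
    simp
  · rw [if_neg h0]
    by_cases hwne : w = 1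
    · have hvne : v ≠ 1 := by
        intro hv1
        apply h0
        have h2 : ((ζ : ZMod (2 ^ K)) * (((2 ^ (K - k - 3) : ℕ)) : ZMod (2 ^ K))) = 0 := by
          apply ZMod.injective_stdAddChar
          rw [AddChar.map_zero_eq_one]
          exact hv1
        have h3 : (((ζ * 2 ^ (K - k - 3) : ℤ)) : ZMod (2 ^ K)) = 0 := by
          rw [← h2]; push_cast; ring
        rw [ZMod.intCast_zmod_eq_zero_iff_dvd] at h3
        have h4 : ((2 ^ K : ℕ) : ℤ) = 2 ^ (k + 3) * 2 ^ (K - k - 3) := by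
          rw [← pow_add, show k + 3 + (K - k - 3) = K by omega]; push_cast; rfl
        rw [h4] at h3
        have h5 : (2:ℤ) ^ (k + 3) ∣ ζ :=
          (mul_dvd_mul_iff_right (pow_ne_zero _ (by norm_num : (2:ℤ) ≠ 0))).1 h3
        exact Int.eq_zero_of_abs_lt_dvd h5 hζ
      have : ∑ r ∈ range 8, v ^ r = 0 := by
        rw [geom_sum_eq hvne, hv8, hwne]; simp
      rw [this, zero_mul]
    · have : ∑ j ∈ range (2 ^ k), w ^ j = 0 := by
        rw [geom_sum_eq hwne, hw1]; simp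
      rw [this, mul_zero]

/-- the exact sampling identity for one scale -/
lemma scale_sum (f : X K → ℂ) (k : ℕ) (hk : k + 3 ≤ K) (p q : ℤ → ℂ) (c : ℤ)
    (hp : ∀ ξ, ξ < c ∨ c + 2 ^ (k + 3) ≤ ξ → p ξ = 0)
    (hq : ∀ ξ, ξ < c ∨ c + 2 ^ (k + 3) ≤ ξ → q ξ = 0) (x : X K) :
    ∑ r ∈ range 8, ∑ j ∈ range (2 ^ k),
        (8:ℂ)⁻¹ * ((((2:ℝ) ^ k)⁻¹ : ℝ) : ℂ) * mul p f (pt K k j r) * ker q (x - pt K k j r)
      = mul (fun ξ => p ξ * q ξ) f x := by
  have hch : ∀ (η : ℤ) (P : X K), ch η (x - P) = ch η x * ch (-η) P := by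
    intro η P
    have h1 : ch η (x - P) * ch η P = ch η x := by
      rw [← ch_add_right, sub_add_cancel]
    have h2 : ch η P * ch (-η) P = 1 := by
      rw [← ch_add_left, add_neg_cancel, ch_zero_left]
    calc ch η (x - P) = ch η (x - P) * (ch η P * ch (-η) P) := by rw [h2, mul_one]
      _ = (ch η (x - P) * ch η P) * ch (-η) P := by ring
      _ = _ := by rw [h1]
  have e1 : ∀ r ∈ range 8, ∀ j ∈ range (2 ^ k),
      (8:ℂ)⁻¹ * ((((2:ℝ) ^ k)⁻¹ : ℝ) : ℂ) * mul p f (pt K k j r) * ker q (x - pt K k j r)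
        = ∑ ξ ∈ win K, ∑ η ∈ win K, ((8:ℂ)⁻¹ * ((((2:ℝ) ^ k)⁻¹ : ℝ) : ℂ)
            * (p ξ * fc f ξ * (q η * ch η x))) * ch (ξ - η) (pt K k j r) := by
    intro r _ j _
    unfold mul ker
    rw [mul_assoc, Finset.sum_mul_sum, Finset.mul_sum]
    refine Finset.sum_congr rfl fun ξ _ => ?_
    rw [Finset.mul_sum]
    refine Finset.sum_congr rfl fun η _ => ?_
    rw [hch, sub_eq_add_neg, ch_add_left]
    ring
  have e2 : ∑ r ∈ range 8, ∑ j ∈ range (2 ^ k),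
        (8:ℂ)⁻¹ * ((((2:ℝ) ^ k)⁻¹ : ℝ) : ℂ) * mul p f (pt K k j r) * ker q (x - pt K k j r)
      = ∑ ξ ∈ win K, ∑ η ∈ win K, ((8:ℂ)⁻¹ * ((((2:ℝ) ^ k)⁻¹ : ℝ) : ℂ)
            * (p ξ * fc f ξ * (q η * ch η x)))
              * ∑ r ∈ range 8, ∑ j ∈ range (2 ^ k), ch (ξ - η) (pt K k j r) := by
    have : ∀ r ∈ range 8, ∑ j ∈ range (2 ^ k),
        (8:ℂ)⁻¹ * ((((2:ℝ) ^ k)⁻¹ : ℝ) : ℂ) * mul p f (pt K k j r) * ker q (x - pt K k j r)
        = ∑ ξ ∈ win K, ∑ η ∈ win K, ((8:ℂ)⁻¹ * ((((2:ℝ) ^ k)⁻¹ : ℝ) : ℂ)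
            * (p ξ * fc f ξ * (q η * ch η x)))
              * ∑ j ∈ range (2 ^ k), ch (ξ - η) (pt K k j r) := by
      intro r hr
      rw [Finset.sum_congr rfl (e1 r hr), Finset.sum_comm]
      refine Finset.sum_congr rfl fun ξ _ => ?_
      rw [Finset.sum_comm]
      refine Finset.sum_congr rfl fun η _ => ?_
      rw [Finset.mul_sum]
    rw [Finset.sum_congr rfl this, Finset.sum_comm]
    refine Finset.sum_congr rfl fun ξ _ => ?_
    rw [Finset.sum_comm]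
    refine Finset.sum_congr rfl fun η _ => ?_
    rw [Finset.mul_sum]
  rw [e2]
  unfold mul
  refine Finset.sum_congr rfl fun ξ hξ => ?_
  rw [Finset.sum_eq_single_of_mem ξ hξ]
  · rw [sub_self, samp k hk 0 (by simp), if_pos rfl]
    have h8 : (8:ℂ)⁻¹ * ((((2:ℝ) ^ k)⁻¹ : ℝ) : ℂ) * (8 * 2 ^ k) = 1 := by
      push_cast
      field_simp
    calc (8:ℂ)⁻¹ * ((((2:ℝ) ^ k)⁻¹ : ℝ) : ℂ) * (p ξ * fc f ξ * (q ξ * ch ξ x)) * (8 * 2 ^ k)
        = ((8:ℂ)⁻¹ * ((((2:ℝ) ^ k)⁻¹ : ℝ) : ℂ) * (8 * 2 ^ k))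
            * (p ξ * fc f ξ * (q ξ * ch ξ x)) := by ring
      _ = _ := by rw [h8]; ring
  · intro η _ hne
    by_cases h1 : ξ < c ∨ c + 2 ^ (k + 3) ≤ ξ
    · rw [hp ξ h1]; ring
    by_cases h2 : η < c ∨ c + 2 ^ (k + 3) ≤ η
    · rw [hq η h2]; ring
    rw [samp k hk (ξ - η), if_neg (by omega), mul_zero]
    rw [abs_lt]
    constructor <;> omega

lemma mul_sub_sym (p q : ℤ → ℂ) (f : X K → ℂ) (x : X K) :
    mul (fun ξ => p ξ - q ξ) f x = mul p f x - mul q f x := by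
  unfold mul
  rw [← Finset.sum_sub_distrib]
  refine Finset.sum_congr rfl fun ξ _ => by ring

lemma mul_sum_sym (s : Finset ℕ) (p : ℕ → ℤ → ℂ) (f : X K → ℂ) (x : X K) :
    mul (fun ξ => ∑ k ∈ s, p k ξ) f x = ∑ k ∈ s, mul (p k) f x := by
  unfold mul
  rw [Finset.sum_comm]
  refine Finset.sum_congr rfl fun ξ _ => ?_
  rw [Finset.sum_mul, Finset.sum_mul]

/-- **Truncated exact discretisation**: the tile sum over the scales `k < κ` is the multiplier
with symbol `θ_0 - θ_κ`. -/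
theorem tile_sum (f : X K → ℂ) (N : ℤ) (κ : ℕ) (hκ : κ + 2 ≤ K) (x : X K) :
    ∑ r ∈ range 8, ∑ k ∈ range κ, ∑ j ∈ range (2 ^ k),
        (8:ℂ)⁻¹ * (tl k j N).len * co psi r f (tl k j N) * pk psit r (tl k j N) x
      = mul (stp 0 N) f x - mul (stp κ (N / 2 ^ κ)) f x := by
  rw [Finset.sum_comm]
  have h1 : ∀ k ∈ range κ, ∑ r ∈ range 8, ∑ j ∈ range (2 ^ k),
        (8:ℂ)⁻¹ * (tl k j N).len * co psi r f (tl k j N) * pk psit r (tl k j N) x
      = mul (psi k (N / 2 ^ k)) f x := by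
    intro k hk
    rw [Finset.mem_range] at hk
    have k0 : (0:ℤ) < 2 ^ k := by positivity
    have := scale_sum f k (by omega) (psi k (N / 2 ^ k)) (psit k (N / 2 ^ k))
      ((N / 2 ^ k - 10) * 2 ^ k) ?_ ?_ x
    · simp only [psi_mul_psit] at this
      exact this
    · rintro ξ (h | h)
      · exact psi_zero_left (by nlinarith)
      · refine psi_zero_right (le_trans ?_ h)
        rw [pow_succ, pow_succ, pow_succ]
        nlinarith
    · obtain ⟨M, hM0, hM⟩ := exists_fwd_bound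
      have hs := (isSym_psit hM hM0 k (N / 2 ^ k)).1
      rintro ξ (h | h)
      · exact hs ξ (Or.inl h)
      · refine hs ξ (Or.inr (le_trans ?_ h))
        rw [pow_succ, pow_succ, pow_succ]
        nlinarith
  rw [Finset.sum_congr rfl h1, ← mul_sum_sym, ← mul_sub_sym]
  congr 1
  funext ξ
  exact sum_psi N ξ κ

/-! ## pointwise estimates -/

lemma norm_aveC_le (g : X K → ℂ) : ‖aveC g‖ ≤ ave (fun x => ‖g x‖) := by
  unfold aveC ave
  rw [norm_div, norm_pow, Complex.norm_ofNat]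
  apply div_le_div_of_nonneg_right (norm_sum_le _ _) (by positivity)

lemma ave_mono {g h : X K → ℝ} (hgh : ∀ x, g x ≤ h x) : ave g ≤ ave h := by
  unfold ave
  apply div_le_div_of_nonneg_right (Finset.sum_le_sum fun x _ => hgh x) (by positivity)

lemma ave_const_mul (c : ℝ) (g : X K → ℝ) : ave (fun x => c * g x) = c * ave g := by
  unfold ave
  rw [← Finset.mul_sum, mul_div_assoc]

lemma norm_fc_le (f : X K → ℂ) (ξ : ℤ) : ‖fc f ξ‖ ≤ ave (fun x => ‖f x‖) := by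
  unfold fc
  refine (norm_aveC_le _).trans (ave_mono fun x => ?_)
  rw [norm_mul, norm_ch, mul_one]

lemma ave_le_MX (f : X K → ℝ) (x : X K) : ave (fun y => |f y|) ≤ MX f x := by
  unfold MX
  refine le_trans (le_of_eq ?_) (Finset.le_sup' _ (Finset.mem_range.2 (Nat.succ_pos K)))
  simp only [pow_zero, one_mul, inv_one]
  congr 1
  funext y
  rw [if_pos ((nrm_le_half _).trans (by norm_num))]

lemma ave_norm_le_MX (f : X K → ℂ) (x : X K) :
    ave (fun y => ‖f y‖) ≤ MX (fun y => ‖f y‖) x := by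
  refine le_trans (le_of_eq ?_) (ave_le_MX (fun y => ‖f y‖) x)
  congr 1
  funext y
  rw [abs_norm]

/-- a multiplier of scale `κ` is bounded by the maximal function -/
lemma mul_le_MX (h1 : P_FOU1) (h3 : P_HL3) : ∃ C : ℝ, 0 ≤ C ∧ ∀ (K k : ℕ) (m : ℤ → ℂ) (a b : ℤ)
    (L D : ℝ), k ≤ K → (∀ ξ, ξ < a ∨ b ≤ ξ → m ξ = 0) → a ≤ b → 0 ≤ a → b ≤ 2 ^ K →
    ((b - a : ℤ) : ℝ) ≤ L * 2 ^ k → 0 ≤ L → 0 ≤ D →
    (∀ i ≤ 20, ∀ ξ, ‖(fwdDiff (1:ℤ))^[i] m ξ‖ ≤ D * ((2:ℝ) ^ (k * i))⁻¹) →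
    ∀ (f : X K → ℂ) (x : X K), ‖mul m f x‖ ≤ C * ((L + 20) * D) * MX (fun y => ‖f y‖) x := by
  obtain ⟨C, hC⟩ := h3
  refine ⟨2 ^ 20 * |C|, by positivity, ?_⟩
  intro K k m a b L D hk hs hab ha hb hL hL0 hD hm f x
  rw [h1 K m f x]
  refine (norm_aveC_le _).trans ?_
  have hM0 : 0 ≤ MX (fun y => ‖f y‖) x := by
    refine le_trans ?_ (ave_norm_le_MX f x)
    unfold ave
    exact div_nonneg (Finset.sum_nonneg fun y _ => norm_nonneg _) (by positivity)
  have e1 : ∀ y, ‖f y * ker m (x - y)‖ ≤ (2 ^ 20 * (L + 20) * D) *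
      (2 ^ k * (|(‖f y‖)| * (1 + 2 ^ k * nrm (y - x))⁻¹ ^ 2)) := by
    intro y
    rw [norm_mul, abs_norm]
    have h5 := ker_decay hs hab ha hb hL hL0 hD hm (x - y)
    have hn : 0 ≤ (2:ℝ) ^ k * nrm (x - y) := mul_nonneg (by positivity) (nrm_nonneg _)
    have h6 : (1 + 2 ^ k * nrm (x - y))⁻¹ ^ 20 ≤ (1 + 2 ^ k * nrm (x - y))⁻¹ ^ 2 := by
      apply pow_le_pow_of_le_one (inv_nonneg.2 (by linarith)) _ (by norm_num)
      exact inv_le_one_of_one_le₀ (by linarith)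
    have h7 : ‖ker m (x - y)‖ ≤ (2 ^ 20 * (L + 20) * D) * 2 ^ k
        * (1 + 2 ^ k * nrm (x - y))⁻¹ ^ 2 :=
      h5.trans (mul_le_mul_of_nonneg_left h6 (by positivity))
    rw [nrm_sub_comm y x]
    calc ‖f y‖ * ‖ker m (x - y)‖ ≤ ‖f y‖ * ((2 ^ 20 * (L + 20) * D) * 2 ^ k
        * (1 + 2 ^ k * nrm (x - y))⁻¹ ^ 2) := mul_le_mul_of_nonneg_left h7 (norm_nonneg _)
      _ = _ := by ring
  refine (ave_mono e1).trans ?_
  rw [ave_const_mul, ave_const_mul]
  have h8 := hC K k (fun y => ‖f y‖) x x hk (by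
    rw [sub_self]
    have : nrm (0 : X K) = 0 := by unfold nrm; rw [map_zero, norm_zero]
    rw [this]; positivity)
  calc (2 ^ 20 * (L + 20) * D) * (2 ^ k * ave fun y => |‖f y‖| * (1 + 2 ^ k * nrm (y - x))⁻¹ ^ 2)
      ≤ (2 ^ 20 * (L + 20) * D) * (C * MX (fun y => ‖f y‖) x) :=
        mul_le_mul_of_nonneg_left h8 (by positivity)
    _ ≤ (2 ^ 20 * (L + 20) * D) * (|C| * MX (fun y => ‖f y‖) x) := by
        apply mul_le_mul_of_nonneg_left _ (by positivity)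
        exact mul_le_mul_of_nonneg_right (le_abs_self C) hM0
    _ = _ := by ring

/-- the sharp partial sum against the symbol `θ_0` -/
lemma cn_sub_stp (f : X K → ℂ) (N : ℤ) (x : X K) :
    ‖CN N f x - mul (stp 0 N) f x‖ ≤ 3 * MX (fun y => ‖f y‖) x := by
  unfold CN
  rw [← mul_sub_sym]
  have hval : ∀ ξ : ℤ, ((if ξ < N then (1:ℂ) else 0) - stp 0 N ξ)
      = if N - 3 ≤ ξ ∧ ξ < N then 1 else 0 := by
    intro ξ
    by_cases h1 : ξ < N - 3
    · rw [if_pos (by omega), stp_one (by rw [pow_zero]; omega), if_neg (by omega), sub_self]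
    · rw [stp_zero (by rw [pow_zero]; omega), sub_zero]
      by_cases h2 : ξ < N
      · rw [if_pos h2, if_pos (by omega)]
      · rw [if_neg h2, if_neg (by omega)]
  unfold mul
  simp only [hval]
  have h0 : 0 ≤ MX (fun y => ‖f y‖) x := by
    refine le_trans ?_ (ave_norm_le_MX f x)
    unfold ave
    exact div_nonneg (Finset.sum_nonneg fun y _ => norm_nonneg _) (by positivity)
  have e1 : ∑ ξ ∈ win K, (if N - 3 ≤ ξ ∧ ξ < N then (1:ℂ) else 0) * fc f ξ * ch ξ x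
      = ∑ ξ ∈ (win K).filter (fun ξ => N - 3 ≤ ξ ∧ ξ < N), fc f ξ * ch ξ x := by
    rw [Finset.sum_filter]
    refine Finset.sum_congr rfl fun ξ _ => ?_
    split_ifs <;> ring
  rw [e1]
  refine (norm_sum_le _ _).trans ?_
  have e2 : ∀ ξ ∈ (win K).filter (fun ξ => N - 3 ≤ ξ ∧ ξ < N),
      ‖fc f ξ * ch ξ x‖ ≤ MX (fun y => ‖f y‖) x := by
    intro ξ _
    rw [norm_mul, norm_ch, mul_one]
    exact (norm_fc_le f ξ).trans (ave_norm_le_MX f x)
  refine (Finset.sum_le_sum e2).trans ?_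
  rw [Finset.sum_const, nsmul_eq_mul]
  apply mul_le_mul_of_nonneg_right _ h0
  have e3 : (win K).filter (fun ξ => N - 3 ≤ ξ ∧ ξ < N) ⊆ Finset.Ico (N - 3) N := by
    intro ξ hξ
    rw [Finset.mem_filter] at hξ
    rw [Finset.mem_Ico]
    exact hξ.2
  have e4 := Finset.card_le_card e3
  rw [Int.card_Ico] at e4
  have e5 : (N - (N - 3)).toNat = 3 := by omega
  rw [e5] at e4
  exact_mod_cast e4

/-- the symbol at the last scale, cut at the lower end of the window -/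
lemma stp_eq_cut (κ : ℕ) (l ξ : ℤ) (h : 2 ^ κ ≤ ξ) :
    stp κ l ξ = aff 0 (((2:ℝ) ^ κ)⁻¹) ξ - aff (-((l - 4 : ℤ) : ℝ)) (((2:ℝ) ^ κ)⁻¹) ξ := by
  rw [aff_one (a := 0)]
  · unfold stp aff
    have hsym : ∀ t : ℝ, Real.smoothTransition (1 - t) = 1 - Real.smoothTransition t := by
      intro t
      unfold Real.smoothTransition
      have hp := Real.smoothTransition.pos_denom t
      have e1 : 1 - (1 - t) = t := by ring
      rw [e1]
      have hp' : expNegInvGlue (1 - t) + expNegInvGlue t ≠ 0 := by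
        rw [add_comm]; exact hp.ne'
      have hp2 : expNegInvGlue t + expNegInvGlue (1 - t) ≠ 0 := hp.ne'
      rw [eq_sub_iff_add_eq, add_comm (expNegInvGlue (1 - t)) (expNegInvGlue t), ← add_div,
        add_comm (expNegInvGlue (1 - t)), div_self hp2]
    have e2 : ((l - 3 : ℤ) : ℝ) + -((2:ℝ) ^ κ)⁻¹ * ξ
        = 1 - (-((l - 4 : ℤ) : ℝ) + ((2:ℝ) ^ κ)⁻¹ * ξ) := by
      push_cast; ring
    rw [e2, hsym]
    push_cast
    ring
  · have := scale_le (k := κ) (c := 1) (ξ := ξ) (by omega)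
    push_cast at this
    linarith

/-- **DISC** -/
theorem disc (h1 : P_FOU1) (h3 : P_HL3) : P_DISC := by
  obtain ⟨M, hM0, hM⟩ := exists_fwd_bound
  obtain ⟨C, hC0, hC⟩ := mul_le_MX h1 h3
  refine ⟨2 * M, 3 + C * ((64 + 20) * (2 * M)), psi, psit, isSym_psi hM hM0, isSym_psit hM hM0,
    fun K hK f hf N hN1 hN2 x => ?_⟩
  rw [tile_sum f N (K - 6) (by omega) x]
  set κ := K - 6 with hκ
  set l := N / 2 ^ κ with hl
  have hpow : (2:ℤ) ^ K = 64 * 2 ^ κ := by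
    have : K = κ + 6 := by omega
    rw [this, pow_add]; ring
  have k0 : (0:ℤ) < 2 ^ κ := by positivity
  have hl1 : 16 ≤ l := by
    rw [hl]
    apply (Int.le_ediv_iff_mul_le k0).2
    nlinarith
  have hl2 : l < 48 := by
    rw [hl]
    apply (Int.ediv_lt_iff_lt_mul k0).2
    nlinarith
  have e1 : CN N f x - (mul (stp 0 N) f x - mul (stp κ l) f x)
      = (CN N f x - mul (stp 0 N) f x) + mul (stp κ l) f x := by ring
  rw [e1]
  refine (norm_add_le _ _).trans ?_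
  rw [add_mul]
  refine add_le_add (cn_sub_stp f N x) ?_
  -- the last symbol
  set p : ℤ → ℂ := fun ξ => aff 0 (((2:ℝ) ^ κ)⁻¹) ξ - aff (-((l - 4 : ℤ) : ℝ)) (((2:ℝ) ^ κ)⁻¹) ξ
    with hp
  have e2 : mul (stp κ l) f x = mul p f x := by
    unfold mul
    refine Finset.sum_congr rfl fun ξ hξ => ?_
    have hξ0 : 0 ≤ ξ := by
      unfold win at hξ
      exact (Finset.mem_Ico.1 hξ).1
    by_cases h : 4 * ξ < 2 ^ K
    · rw [hf ξ hξ0 h]; ring
    · rw [stp_eq_cut κ l ξ (by rw [hpow] at h; omega)]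
  rw [e2]
  refine hC K κ p 0 ((l - 3) * 2 ^ κ) 64 (2 * M) (by omega) ?_ (mul_nonneg (by omega) k0.le) le_rfl
    (by nlinarith) ?_ (by norm_num) (by positivity) ?_ f x
  · rintro ξ (h | h)
    · rw [hp]
      simp only
      rw [aff_zero, aff_zero, sub_zero]
      · have := le_scale (k := κ) (c := l - 4) (ξ := ξ) (by nlinarith)
        push_cast at this ⊢
        linarith
      · have := le_scale (k := κ) (c := 0) (ξ := ξ) (by omega)
        push_cast at this ⊢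
        linarith
    · rw [hp]
      simp only
      rw [aff_one, aff_one, sub_self]
      · have := scale_le (k := κ) (c := l - 3) (ξ := ξ) h
        push_cast at this ⊢
        linarith
      · have := scale_le (k := κ) (c := 1) (ξ := ξ) (by nlinarith)
        push_cast at this ⊢
        linarith
  · push_cast
    have : ((l:ℤ):ℝ) < 48 := by exact_mod_cast hl2
    have k0' : (0:ℝ) < 2 ^ κ := by positivity
    nlinarith
  · intro i hi ξ
    exact norm_fwd_sub_aff hM hM0 (k := κ) (by rw [abs_inv_two_pow]) (by rw [abs_inv_two_pow])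
      _ _ i hi ξ

end Vale.Agent.P091.CH.H420
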