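import Vale.Agent.P091.CH.Props

/-!
# Kernel decay on the grid : `P_KER1`, `P_KER2`  (helper420)
-/

open Finset

namespace Vale.Agent.P091.CH.H420

variable {K : ℕ}

/-! ## characters -/

lemma ch_add_left (ξ η : ℤ) (x : X K) : ch (ξ + η) x = ch ξ x * ch η x := by
  unfold ch
  rw [← AddChar.map_add_eq_mul]
  congr 1
  push_cast
  ring

lemma ch_add_right (ξ : ℤ) (x y : X K) : ch ξ (x + y) = ch ξ x * ch ξ y := by
  unfold ch
  rw [← AddChar.map_add_eq_mul]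
  congr 1
  ring

lemma ch_zero_left (x : X K) : ch 0 x = 1 := by simp [ch]

lemma ch_zero_right (ξ : ℤ) : ch ξ (0 : X K) = 1 := by simp [ch]

lemma exists_rep (x : X K) : ∃ r : ℝ, nrm x = |r| ∧ |r| ≤ 1 / 2 ∧
    ∀ ξ : ℤ, ch ξ x = Complex.exp (Complex.I * ((2 * Real.pi * (ξ * r) : ℝ) : ℂ)) := by
  set j : ℕ := x.val with hj
  have hx : x = ((j : ℤ) : X K) := by simp [hj]
  set t : ℝ := (j : ℝ) / 2 ^ K with ht
  refine ⟨t - round t, ?_, abs_sub_round t, fun ξ => ?_⟩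
  · unfold nrm
    rw [hx, ZMod.toAddCircle_intCast, UnitAddCircle.norm_eq]
    simp [ht]
  · unfold ch
    have h1 : ((ξ : ZMod (2 ^ K)) * x) = (((ξ * j : ℤ)) : ZMod (2 ^ K)) := by
      rw [hx]; push_cast; ring
    rw [h1, ZMod.stdAddChar_coe]
    have h2 : Complex.I * ((2 * Real.pi * (ξ * (t - round t)) : ℝ) : ℂ)
        = 2 * Real.pi * Complex.I * ((ξ * j : ℤ) : ℂ) / ((2 ^ K : ℕ) : ℂ)
          + ((-(ξ * round t) : ℤ) : ℂ) * (2 * Real.pi * Complex.I) := by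
      simp only [ht]
      push_cast
      ring
    rw [h2, Complex.exp_add, Complex.exp_int_mul_two_pi_mul_I, mul_one]

lemma norm_ch (ξ : ℤ) (x : X K) : ‖ch ξ x‖ = 1 := by
  obtain ⟨r, -, -, h⟩ := exists_rep x
  rw [h, mul_comm, Complex.norm_exp_ofReal_mul_I]

lemma nrm_nonneg (x : X K) : 0 ≤ nrm x := norm_nonneg _

lemma nrm_le_half (x : X K) : nrm x ≤ 1 / 2 := by
  obtain ⟨r, h, h2, -⟩ := exists_rep x
  rw [h]; exact h2

lemma nrm_add_le (x y : X K) : nrm (x + y) ≤ nrm x + nrm y := by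
  unfold nrm
  rw [map_add]
  exact norm_add_le _ _

lemma nrm_neg (x : X K) : nrm (-x) = nrm x := by
  unfold nrm
  rw [map_neg, norm_neg]

lemma nrm_sub_comm (x y : X K) : nrm (x - y) = nrm (y - x) := by
  rw [← nrm_neg, neg_sub]

lemma norm_ch_sub_one_le (ξ : ℤ) (x : X K) : ‖ch ξ x - 1‖ ≤ 2 * Real.pi * |(ξ : ℝ)| * nrm x := by
  obtain ⟨r, h, -, h3⟩ := exists_rep x
  rw [h3]
  refine (Real.norm_exp_I_mul_ofReal_sub_one_le).trans ?_
  rw [Real.norm_eq_abs, abs_mul, abs_mul (ξ : ℝ), h, abs_of_pos Real.two_pi_pos]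
  exact le_of_eq (by ring)

lemma le_norm_ch_sub_one (x : X K) : 4 * nrm x ≤ ‖ch (-1) x - 1‖ := by
  obtain ⟨r, h, h2, h3⟩ := exists_rep x
  rw [h3, Complex.norm_exp_I_mul_ofReal_sub_one, h, Real.norm_eq_abs, abs_mul, abs_two]
  have e1 : 2 * Real.pi * (((-1 : ℤ) : ℝ) * r) / 2 = -(Real.pi * r) := by push_cast; ring
  rw [e1, Real.sin_neg, abs_neg]
  have e2 : |Real.sin (Real.pi * r)| = Real.sin (Real.pi * |r|) := by
    rcases le_total 0 r with hr | hr
    · rw [abs_of_nonneg hr, abs_of_nonneg]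
      apply Real.sin_nonneg_of_nonneg_of_le_pi (by positivity)
      rw [abs_of_nonneg hr] at h2
      nlinarith [Real.pi_pos]
    · rw [abs_of_nonpos hr, mul_neg, Real.sin_neg, abs_of_nonpos]
      rw [← neg_neg (Real.pi * r), Real.sin_neg, neg_nonpos, ← mul_neg]
      rw [abs_of_nonpos hr] at h2
      apply Real.sin_nonneg_of_nonneg_of_le_pi
      · exact mul_nonneg Real.pi_pos.le (by linarith)
      · nlinarith [Real.pi_pos]
  rw [e2]
  have h4 := Real.mul_le_sin (x := Real.pi * |r|) (by positivity)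
    (by nlinarith [Real.pi_pos])
  have h5 : 2 / Real.pi * (Real.pi * |r|) = 2 * |r| := by
    field_simp
  rw [h5] at h4
  linarith

/-! ## summation by parts -/

lemma supp_fwd {m : ℤ → ℂ} {a b : ℤ} (h : ∀ ξ, ξ < a ∨ b ≤ ξ → m ξ = 0) :
    ∀ ξ, ξ < a - 1 ∨ b ≤ ξ → fwdDiff (1:ℤ) m ξ = 0 := by
  intro ξ hξ
  unfold fwdDiff
  rw [h (ξ + 1) (by omega), h ξ (by omega), sub_zero]

lemma supp_fwd_iter {m : ℤ → ℂ} {a b : ℤ} (h : ∀ ξ, ξ < a ∨ b ≤ ξ → m ξ = 0) (i : ℕ) :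
    ∀ ξ, ξ < a - i ∨ b ≤ ξ → (fwdDiff (1:ℤ))^[i] m ξ = 0 := by
  induction i with
  | zero => simpa using h
  | succ i ih =>
    rw [Function.iterate_succ', Function.comp_apply]
    have := supp_fwd ih
    intro ξ hξ
    apply this
    push_cast at hξ
    omega

/-- one step of summation by parts -/
lemma sum_fwd {m : ℤ → ℂ} {a b : ℤ} (h : ∀ ξ, ξ < a ∨ b ≤ ξ → m ξ = 0) (A B : ℤ) (hA : A < a)
    (hB : b ≤ B) (x : X K) :
    ∑ ξ ∈ Ico A B, fwdDiff (1:ℤ) m ξ * ch ξ x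
      = (ch (-1) x - 1) * ∑ ξ ∈ Ico A B, m ξ * ch ξ x := by
  rcases le_or_gt B A with hBA | hAB
  · rw [Finset.Ico_eq_empty (by omega)]; simp
  have e1 : ∑ ξ ∈ Ico A B, m (ξ + 1) * ch ξ x = ch (-1) x * ∑ ξ ∈ Ico A B, m ξ * ch ξ x := by
    have e2 : ∑ ξ ∈ Ico A B, m (ξ + 1) * ch ξ x
        = ∑ ξ ∈ Ico (A + 1) (B + 1), m ξ * ch (ξ - 1) x := by
      rw [← Finset.map_add_right_Ico, Finset.sum_map]
      refine Finset.sum_congr rfl fun ξ _ => ?_
      simp [addRightEmbedding]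
    have e3 : ∑ ξ ∈ Ico (A + 1) (B + 1), m ξ * ch (ξ - 1) x
        = ∑ ξ ∈ Ico A B, m ξ * ch (ξ - 1) x := by
      have s1 : ∑ ξ ∈ Ico (A + 1) (B + 1), m ξ * ch (ξ - 1) x
          = ∑ ξ ∈ Ico A (B + 1), m ξ * ch (ξ - 1) x := by
        apply Finset.sum_subset
        · intro ξ; simp only [Finset.mem_Ico]; omega
        · intro ξ h1 h2
          simp only [Finset.mem_Ico] at h1 h2
          rw [h ξ (by omega), zero_mul]
      have s2 : ∑ ξ ∈ Ico A B, m ξ * ch (ξ - 1) x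
          = ∑ ξ ∈ Ico A (B + 1), m ξ * ch (ξ - 1) x := by
        apply Finset.sum_subset
        · intro ξ; simp only [Finset.mem_Ico]; omega
        · intro ξ h1 h2
          simp only [Finset.mem_Ico] at h1 h2
          rw [h ξ (by omega), zero_mul]
      rw [s1, s2]
    rw [e2, e3, Finset.mul_sum]
    refine Finset.sum_congr rfl fun ξ _ => ?_
    rw [sub_eq_add_neg, ch_add_left]
    ring
  have e4 : ∑ ξ ∈ Ico A B, fwdDiff (1:ℤ) m ξ * ch ξ x
      = ∑ ξ ∈ Ico A B, m (ξ + 1) * ch ξ x - ∑ ξ ∈ Ico A B, m ξ * ch ξ x := by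
    rw [← Finset.sum_sub_distrib]
    refine Finset.sum_congr rfl fun ξ _ => ?_
    unfold fwdDiff
    ring
  rw [e4, e1]
  ring

lemma sum_fwd_iter {m : ℤ → ℂ} {a b : ℤ} (h : ∀ ξ, ξ < a ∨ b ≤ ξ → m ξ = 0) (A B : ℤ) (i : ℕ)
    (hA : A + i ≤ a) (hB : b ≤ B) (x : X K) :
    ∑ ξ ∈ Ico A B, (fwdDiff (1:ℤ))^[i] m ξ * ch ξ x
      = (ch (-1) x - 1) ^ i * ∑ ξ ∈ Ico A B, m ξ * ch ξ x := by
  induction i with
  | zero => simp
  | succ i ih =>
    have ih' := ih (by push_cast at hA; omega)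
    rw [Function.iterate_succ', Function.comp_apply,
      sum_fwd (supp_fwd_iter h i) A B (by push_cast at hA; omega) hB, ih']
    ring

/-- the basic bound -/
lemma nsum_le {m : ℤ → ℂ} {a b : ℤ} (h : ∀ ξ, ξ < a ∨ b ≤ ξ → m ξ = 0) (hab : a ≤ b)
    (i : ℕ) {D : ℝ} (hD : 0 ≤ D) (hm : ∀ ξ, ‖(fwdDiff (1:ℤ))^[i] m ξ‖ ≤ D) (x : X K) :
    (4 * nrm x) ^ i * ‖∑ ξ ∈ Ico a b, m ξ * ch ξ x‖ ≤ ((b - a : ℤ) + i) * D := by
  have h0 : ∑ ξ ∈ Ico a b, m ξ * ch ξ x = ∑ ξ ∈ Ico (a - i) b, m ξ * ch ξ x := by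
    apply Finset.sum_subset
    · intro ξ; simp only [Finset.mem_Ico]; omega
    · intro ξ h1 h2
      simp only [Finset.mem_Ico] at h1 h2
      rw [h ξ (by omega), zero_mul]
  rw [h0]
  have h1 := sum_fwd_iter h (a - i) b i (by omega) le_rfl x
  have h2 : ‖∑ ξ ∈ Ico (a - i) b, (fwdDiff (1:ℤ))^[i] m ξ * ch ξ x‖ ≤ ((b - a : ℤ) + i) * D := by
    refine (norm_sum_le _ _).trans ?_
    have : ∀ ξ ∈ Ico (a - i) b, ‖(fwdDiff (1:ℤ))^[i] m ξ * ch ξ x‖ ≤ D := by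
      intro ξ _
      rw [norm_mul, norm_ch, mul_one]
      exact hm ξ
    refine (Finset.sum_le_sum this).trans ?_
    rw [Finset.sum_const, Int.card_Ico, nsmul_eq_mul]
    apply mul_le_mul_of_nonneg_right _ hD
    have : (((b - (a - i)).toNat : ℤ) : ℝ) = ((b - a : ℤ) : ℝ) + i := by
      rw [Int.toNat_of_nonneg (by omega)]
      push_cast; ring
    rw [← this]
    norm_cast
  rw [h1, norm_mul, norm_pow] at h2
  refine le_trans ?_ h2
  apply mul_le_mul_of_nonneg_right _ (norm_nonneg _)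
  exact pow_le_pow_left₀ (mul_nonneg (by norm_num) (nrm_nonneg x)) (le_norm_ch_sub_one x) i

/-- general decay: symbol supported in `[a,b)` inside the window, `b - a ≤ L 2^k` -/
lemma ker_decay {m : ℤ → ℂ} {a b : ℤ} (h : ∀ ξ, ξ < a ∨ b ≤ ξ → m ξ = 0) (hab : a ≤ b)
    (ha : 0 ≤ a) (hb : b ≤ 2 ^ K) {L : ℝ} {k : ℕ} (hL : ((b - a : ℤ) : ℝ) ≤ L * 2 ^ k)
    (_hL0 : 0 ≤ L) {D : ℝ} (hD : 0 ≤ D)
    (hm : ∀ i ≤ 20, ∀ ξ, ‖(fwdDiff (1:ℤ))^[i] m ξ‖ ≤ D * ((2:ℝ) ^ (k * i))⁻¹) (x : X K) :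
    ‖ker m x‖ ≤ (2 ^ 20 * (L + 20) * D) * 2 ^ k * (1 + 2 ^ k * nrm x)⁻¹ ^ 20 := by
  have hk : ker m x = ∑ ξ ∈ Ico a b, m ξ * ch ξ x := by
    unfold ker win
    symm
    apply Finset.sum_subset
    · intro ξ; simp only [Finset.mem_Ico]; omega
    · intro ξ h1 h2
      simp only [Finset.mem_Ico] at h1 h2
      rw [h ξ (by omega), zero_mul]
  rw [hk]
  set S := ‖∑ ξ ∈ Ico a b, m ξ * ch ξ x‖ with hS
  have hS0 : 0 ≤ S := norm_nonneg _
  have k1 : (1:ℝ) ≤ 2 ^ k := one_le_pow₀ (by norm_num)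
  set y := (2:ℝ) ^ k * nrm x with hy
  have hy0 : 0 ≤ y := mul_nonneg (by positivity) (nrm_nonneg x)
  -- two bounds
  have b0 : S ≤ (L + 20) * D * 2 ^ k := by
    have := nsum_le h hab 0 hD (fun ξ => by simpa using hm 0 (by norm_num) ξ) x
    simp only [pow_zero, one_mul, Nat.cast_zero, add_zero] at this
    refine this.trans ?_
    have e1 : ((b - a : ℤ) : ℝ) * D ≤ (L * 2 ^ k) * D := mul_le_mul_of_nonneg_right hL hD
    have e2 : 0 ≤ 20 * D * 2 ^ k := by positivity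
    nlinarith
  have b20 : y ^ 20 * S ≤ (L + 20) * D * 2 ^ k := by
    have h20 := nsum_le h hab 20 (D := D * ((2:ℝ) ^ (k * 20))⁻¹) (by positivity)
      (hm 20 le_rfl) x
    have e0 : y ^ 20 * S = (2:ℝ) ^ (k * 20) * (nrm x ^ 20 * S) := by
      rw [hy, mul_pow, ← pow_mul]; ring
    have e1 : nrm x ^ 20 * S ≤ (4 * nrm x) ^ 20 * S := by
      apply mul_le_mul_of_nonneg_right _ hS0
      apply pow_le_pow_left₀ (nrm_nonneg x)
      linarith [nrm_nonneg x]
    rw [e0]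
    have e2 : (2:ℝ) ^ (k * 20) * (nrm x ^ 20 * S)
        ≤ (2:ℝ) ^ (k * 20) * ((((b - a : ℤ) : ℝ) + (20 : ℕ)) * (D * ((2:ℝ) ^ (k * 20))⁻¹)) := by
      apply mul_le_mul_of_nonneg_left (e1.trans h20) (by positivity)
    refine e2.trans ?_
    have e3 : (2:ℝ) ^ (k * 20) * ((((b - a : ℤ) : ℝ) + (20 : ℕ)) * (D * ((2:ℝ) ^ (k * 20))⁻¹))
        = (((b - a : ℤ) : ℝ) + 20) * D := by
      have : (2:ℝ) ^ (k * 20) ≠ 0 := by positivity
      field_simp
      push_cast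
      ring
    rw [e3]
    have e4 : ((b - a : ℤ) : ℝ) + 20 ≤ (L + 20) * 2 ^ k := by nlinarith
    calc (((b - a : ℤ) : ℝ) + 20) * D ≤ ((L + 20) * 2 ^ k) * D :=
          mul_le_mul_of_nonneg_right e4 hD
      _ = _ := by ring
  have hy1 : (1 + y) ^ 20 ≤ 2 ^ 20 * max 1 (y ^ 20) := by
    rcases le_total y 1 with hle | hle
    · calc (1 + y) ^ 20 ≤ 2 ^ 20 := pow_le_pow_left₀ (by linarith) (by linarith) 20
        _ ≤ 2 ^ 20 * max 1 (y ^ 20) := by
          have := le_max_left (1:ℝ) (y ^ 20)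
          nlinarith
    · calc (1 + y) ^ 20 ≤ (2 * y) ^ 20 := pow_le_pow_left₀ (by linarith) (by linarith) 20
        _ = 2 ^ 20 * y ^ 20 := by ring
        _ ≤ 2 ^ 20 * max 1 (y ^ 20) := by
          have := le_max_right (1:ℝ) (y ^ 20)
          nlinarith
  have b3 : max 1 (y ^ 20) * S ≤ (L + 20) * D * 2 ^ k := by
    rcases le_total 1 (y ^ 20) with hle | hle
    · rw [max_eq_right hle]; exact b20
    · rw [max_eq_left hle, one_mul]; exact b0
  have hpos : 0 < (1 + y) ^ 20 := by positivity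
  rw [inv_pow, ← div_eq_mul_inv, le_div_iff₀ hpos]
  calc S * (1 + y) ^ 20 ≤ S * (2 ^ 20 * max 1 (y ^ 20)) := mul_le_mul_of_nonneg_left hy1 hS0
    _ = 2 ^ 20 * (max 1 (y ^ 20) * S) := by ring
    _ ≤ 2 ^ 20 * ((L + 20) * D * 2 ^ k) := by
        apply mul_le_mul_of_nonneg_left b3 (by positivity)
    _ = _ := by ring

theorem ker1 : P_KER1 := by
  intro B
  refine ⟨2 ^ 20 * (8 + 20) * |B|, fun m hm K k l hk h0 h1 x => ?_⟩
  obtain ⟨hsupp, hdiff⟩ := hm k l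
  have hab : (l - 10) * 2 ^ k ≤ (l - 2) * 2 ^ k := by
    apply mul_le_mul_of_nonneg_right (by omega) (by positivity)
  refine ker_decay (L := 8) hsupp hab h0 h1 ?_ (by norm_num) (abs_nonneg B) ?_ x
  · push_cast
    exact le_of_eq (by ring)
  · intro i hi ξ
    refine (hdiff i hi ξ).trans ?_
    apply mul_le_mul_of_nonneg_right (le_abs_self B) (by positivity)

/-! ## discrete Leibniz rule -/

lemma leib {r : ℝ} (hr : 0 ≤ r) : ∀ (n : ℕ) (p q : ℤ → ℂ) (lo hi : ℤ) (P Q : ℝ), 0 ≤ P → 0 ≤ Q →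
    (∀ ξ, ξ < lo ∨ hi ≤ ξ → p ξ = 0) →
    (∀ i ≤ n, ∀ ξ, ‖(fwdDiff (1:ℤ))^[i] p ξ‖ ≤ P * r ^ i) →
    (∀ i ≤ n, ∀ ξ, lo - n ≤ ξ → ξ ≤ hi + n → ‖(fwdDiff (1:ℤ))^[i] q ξ‖ ≤ Q * r ^ i) →
    ∀ ξ, ‖(fwdDiff (1:ℤ))^[n] (fun η => p η * q η) ξ‖ ≤ 2 ^ n * (P * Q) * r ^ n := by
  intro n
  induction n with
  | zero =>
    intro p q lo hi P Q hP hQ hs hp hq ξ
    simp only [Function.iterate_zero, id_eq, pow_zero, one_mul, mul_one, norm_mul]
    by_cases hξ : ξ < lo ∨ hi ≤ ξ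
    · rw [hs ξ hξ]; simp; positivity
    · have h1 := hp 0 le_rfl ξ
      have h2 := hq 0 le_rfl ξ (by push_cast; omega) (by push_cast; omega)
      simp only [Function.iterate_zero, id_eq, pow_zero, mul_one] at h1 h2
      exact mul_le_mul h1 h2 (norm_nonneg _) hP
  | succ n ih =>
    intro p q lo hi P Q hP hQ hs hp hq ξ
    rw [Function.iterate_succ, Function.comp_apply]
    have e1 : fwdDiff (1:ℤ) (fun η => p η * q η)
        = (fun η => fwdDiff (1:ℤ) p η * q (η + 1)) + (fun η => p η * fwdDiff (1:ℤ) q η) := by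
      funext η
      simp only [fwdDiff, Pi.add_apply]
      ring
    rw [e1, fwdDiff_iter_add, Pi.add_apply]
    have t1 := ih (fwdDiff (1:ℤ) p) (fun η => q (η + 1)) (lo - 1) hi (P * r) Q (by positivity) hQ
      (supp_fwd hs)
      (fun i hi' ξ => by
        have := hp (i + 1) (by omega) ξ
        rw [Function.iterate_succ, Function.comp_apply] at this
        refine this.trans (le_of_eq (by ring)))
      (fun i hi' ξ h1 h2 => by
        rw [fwdDiff_iter_comp_add]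
        exact hq i (by omega) (ξ + 1) (by push_cast; omega) (by push_cast; omega)) ξ
    have t2 := ih p (fwdDiff (1:ℤ) q) lo hi P (Q * r) hP (by positivity) hs
      (fun i hi' ξ => hp i (by omega) ξ)
      (fun i hi' ξ h1 h2 => by
        have := hq (i + 1) (by omega) ξ (by push_cast; omega) (by push_cast; omega)
        rw [Function.iterate_succ, Function.comp_apply] at this
        refine this.trans (le_of_eq (by ring))) ξ
    refine (norm_add_le _ _).trans ((add_le_add t1 t2).trans (le_of_eq (by ring)))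

lemma fwd_exp (ξ : ℤ) (h : X K) (i : ℕ) : (fwdDiff (1:ℤ))^[i + 1] (fun η => ch (η - ξ) h - 1)
    = fun η => (ch 1 h - 1) ^ (i + 1) * ch (η - ξ) h := by
  have e0 : ∀ c : ℂ, fwdDiff (1:ℤ) (fun η => c * ch (η - ξ) h)
      = fun η => (c * (ch 1 h - 1)) * ch (η - ξ) h := by
    intro c
    funext η
    simp only [fwdDiff]
    rw [show η + 1 - ξ = 1 + (η - ξ) by ring, ch_add_left 1 (η - ξ) h]
    ring
  induction i with
  | zero =>
    funext η
    simp only [zero_add, Function.iterate_one, fwdDiff, pow_one]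
    rw [show η + 1 - ξ = 1 + (η - ξ) by ring, ch_add_left 1 (η - ξ) h]
    ring
  | succ i ih =>
    rw [Function.iterate_succ', Function.comp_apply, ih, e0]
    funext η
    ring

theorem ker2 : P_KER2 := by
  intro B
  refine ⟨2 ^ 20 * (8 + 20) * (2 ^ 20 * (|B| * (8 * Real.pi) ^ 20)) * 5 ^ 20,
    fun m hm K k l ξ hk h0 h1 hξ x y hxy => ?_⟩
  obtain ⟨hsupp, hdiff⟩ := hm k l
  set h : X K := x - y with hh
  set q : ℤ → ℂ := fun η => ch (η - ξ) h - 1 with hq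
  have hab : (l - 10) * 2 ^ k ≤ (l - 2) * 2 ^ k := by
    apply mul_le_mul_of_nonneg_right (by omega) (by positivity)
  have hpi : 0 < Real.pi := Real.pi_pos
  have hpi3 : 3 < Real.pi := Real.pi_gt_three
  have hn0 : 0 ≤ nrm h := nrm_nonneg h
  have k1 : (1:ℝ) ≤ 2 ^ k := one_le_pow₀ (by norm_num)
  have kpos : (0:ℝ) < 2 ^ k := by positivity
  set r : ℝ := ((2:ℝ) ^ k)⁻¹ with hr
  have hr0 : 0 < r := by positivity
  have hkr : 2 ^ k * r = 1 := mul_inv_cancel₀ kpos.ne'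
  -- the identity
  have key : ch (-ξ) x * ker (m k l) x - ch (-ξ) y * ker (m k l) y
      = ch (-ξ) y * ker (fun η => m k l η * q η) y := by
    unfold ker
    rw [Finset.mul_sum, Finset.mul_sum, Finset.mul_sum, ← Finset.sum_sub_distrib]
    refine Finset.sum_congr rfl fun η _ => ?_
    have e1 : ch (-ξ) x * ch η x = ch (-ξ) y * ch η y * ch (η - ξ) h := by
      have : x = y + h := by rw [hh]; ring
      rw [← ch_add_left, ← ch_add_left, show -ξ + η = η - ξ by ring]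
      conv_lhs => rw [this, ch_add_right]
    calc ch (-ξ) x * (m k l η * ch η x) - ch (-ξ) y * (m k l η * ch η y)
        = m k l η * (ch (-ξ) x * ch η x) - ch (-ξ) y * (m k l η * ch η y) := by ring
      _ = _ := by rw [e1, hq]; ring
  rw [key, norm_mul, norm_ch, one_mul]
  -- bounds of the symbol
  set Q : ℝ := (8 * Real.pi) ^ 20 * (2 ^ k * nrm h) with hQ
  have hQ0 : 0 ≤ Q := by positivity
  have hqb : ∀ i ≤ 20, ∀ η : ℤ, (l - 10) * 2 ^ k - 20 ≤ η → η ≤ (l - 2) * 2 ^ k + 20 →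
      ‖(fwdDiff (1:ℤ))^[i] q η‖ ≤ Q * r ^ i := by
    intro i hi η hη1 hη2
    rcases i with _ | i
    · simp only [Function.iterate_zero, id_eq, pow_zero, mul_one]
      refine (norm_ch_sub_one_le _ _).trans ?_
      have c1 : |((η - ξ : ℤ) : ℝ)| ≤ 50 * 2 ^ k := by
        have hz : |η - ξ| ≤ 50 * 2 ^ k := by
          have k1' : (1:ℤ) ≤ 2 ^ k := one_le_pow₀ (by norm_num)
          rw [abs_le] at hξ ⊢
          constructor <;> nlinarith [hξ.1, hξ.2]
        have := (Int.cast_le (R := ℝ)).2 hz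
        push_cast at this ⊢
        exact this
      have c2 : 2 * Real.pi * |((η - ξ : ℤ) : ℝ)| * nrm h
          ≤ 2 * Real.pi * (50 * 2 ^ k) * nrm h := by
        apply mul_le_mul_of_nonneg_right _ hn0
        apply mul_le_mul_of_nonneg_left c1 (by positivity)
      refine c2.trans ?_
      have c3 : 2 * Real.pi * 50 ≤ (8 * Real.pi) ^ 20 := by
        have c4 : (8 * Real.pi) ^ 2 ≤ (8 * Real.pi) ^ 20 :=
          pow_le_pow_right₀ (by linarith) (by norm_num)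
        nlinarith
      calc 2 * Real.pi * (50 * 2 ^ k) * nrm h = (2 * Real.pi * 50) * (2 ^ k * nrm h) := by ring
        _ ≤ _ := mul_le_mul_of_nonneg_right c3 (by positivity)
    · rw [hq, fwd_exp, norm_mul, norm_ch, mul_one, norm_pow]
      have d1 : ‖ch 1 h - 1‖ ≤ 2 * Real.pi * nrm h := by
        simpa using norm_ch_sub_one_le 1 h
      have d2 : ‖ch 1 h - 1‖ ≤ 8 * Real.pi * r := by
        refine d1.trans ?_
        calc 2 * Real.pi * nrm h ≤ 2 * Real.pi * (4 * r) :=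
              mul_le_mul_of_nonneg_left hxy (by positivity)
          _ = _ := by ring
      have d3 : 2 * Real.pi * nrm h = (2 * Real.pi) * (2 ^ k * nrm h) * r := by
        calc 2 * Real.pi * nrm h = 2 * Real.pi * nrm h * (2 ^ k * r) := by rw [hkr, mul_one]
          _ = _ := by ring
      calc ‖ch 1 h - 1‖ ^ (i + 1) = ‖ch 1 h - 1‖ ^ i * ‖ch 1 h - 1‖ := pow_succ _ _
        _ ≤ (8 * Real.pi * r) ^ i * ((2 * Real.pi) * (2 ^ k * nrm h) * r) := by
            rw [← d3]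
            exact mul_le_mul (pow_le_pow_left₀ (norm_nonneg _) d2 i) d1 (norm_nonneg _)
              (by positivity)
        _ = ((8 * Real.pi) ^ i * (2 * Real.pi)) * (2 ^ k * nrm h) * r ^ (i + 1) := by
            rw [mul_pow]; ring
        _ ≤ (8 * Real.pi) ^ 20 * (2 ^ k * nrm h) * r ^ (i + 1) := by
            apply mul_le_mul_of_nonneg_right _ (by positivity)
            apply mul_le_mul_of_nonneg_right _ (by positivity)
            calc (8 * Real.pi) ^ i * (2 * Real.pi) ≤ (8 * Real.pi) ^ i * (8 * Real.pi) := by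
                  apply mul_le_mul_of_nonneg_left _ (by positivity)
                  linarith
              _ = (8 * Real.pi) ^ (i + 1) := (pow_succ _ _).symm
              _ ≤ _ := pow_le_pow_right₀ (by linarith) hi
  have hpb : ∀ i ≤ 20, ∀ η, ‖(fwdDiff (1:ℤ))^[i] (m k l) η‖ ≤ |B| * r ^ i := by
    intro i hi η
    refine (hdiff i hi η).trans ?_
    rw [pow_mul, hr, inv_pow]
    apply mul_le_mul_of_nonneg_right (le_abs_self B) (by positivity)
  have hD : ∀ i ≤ 20, ∀ η, ‖(fwdDiff (1:ℤ))^[i] (fun η => m k l η * q η) η‖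
      ≤ (2 ^ 20 * (|B| * Q)) * ((2:ℝ) ^ (k * i))⁻¹ := by
    intro i hi η
    have := leib hr0.le i (m k l) q _ _ |B| Q (abs_nonneg B) hQ0 hsupp
      (fun j hj => hpb j (by omega))
      (fun j hj η h1 h2 => hqb j (by omega) η (by omega) (by omega)) η
    refine this.trans ?_
    rw [pow_mul, ← inv_pow, ← hr]
    apply mul_le_mul_of_nonneg_right _ (by positivity)
    apply mul_le_mul_of_nonneg_right _ (by positivity)
    exact pow_le_pow_right₀ (by norm_num) hi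
  have hsupp' : ∀ η, η < (l - 10) * 2 ^ k ∨ (l - 2) * 2 ^ k ≤ η → m k l η * q η = 0 := by
    intro η hη
    rw [hsupp η hη, zero_mul]
  have hfin := ker_decay (K := K) (L := 8) (k := k) (D := 2 ^ 20 * (|B| * Q)) hsupp' hab h0 h1
    (by push_cast; exact le_of_eq (by ring)) (by norm_num) (by positivity) hD y
  refine hfin.trans ?_
  -- compare the weights
  have w1 : nrm x ≤ nrm y + 4 * r := by
    have : x = y + h := by rw [hh]; ring
    calc nrm x = nrm (y + h) := by rw [← this]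
      _ ≤ nrm y + nrm h := nrm_add_le _ _
      _ ≤ _ := by linarith
  have w2 : 1 + 2 ^ k * nrm x ≤ 5 * (1 + 2 ^ k * nrm y) := by
    have : 2 ^ k * nrm x ≤ 2 ^ k * nrm y + 4 := by
      calc 2 ^ k * nrm x ≤ 2 ^ k * (nrm y + 4 * r) := mul_le_mul_of_nonneg_left w1 kpos.le
        _ = 2 ^ k * nrm y + 4 * (2 ^ k * r) := by ring
        _ = _ := by rw [hkr, mul_one]
    have hy0 : 0 ≤ 2 ^ k * nrm y := mul_nonneg kpos.le (nrm_nonneg y)
    linarith
  have hx0 : 0 < 1 + 2 ^ k * nrm x := by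
    have : 0 ≤ 2 ^ k * nrm x := mul_nonneg kpos.le (nrm_nonneg x)
    linarith
  have hy0 : 0 < 1 + 2 ^ k * nrm y := by
    have : 0 ≤ 2 ^ k * nrm y := mul_nonneg kpos.le (nrm_nonneg y)
    linarith
  have w3 : (1 + 2 ^ k * nrm y)⁻¹ ≤ 5 * (1 + 2 ^ k * nrm x)⁻¹ := by
    rw [inv_eq_one_div, div_le_iff₀ hy0, mul_assoc, mul_comm (1 + 2 ^ k * nrm x)⁻¹, ← mul_assoc,
      ← div_eq_mul_inv, le_div_iff₀ hx0]
    linarith
  have w4 : (1 + 2 ^ k * nrm y)⁻¹ ^ 20 ≤ 5 ^ 20 * (1 + 2 ^ k * nrm x)⁻¹ ^ 20 := by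
    rw [← mul_pow]
    exact pow_le_pow_left₀ (inv_nonneg.2 hy0.le) w3 20
  calc (2 ^ 20 * (8 + 20) * (2 ^ 20 * (|B| * Q))) * 2 ^ k * (1 + 2 ^ k * nrm y)⁻¹ ^ 20
      ≤ (2 ^ 20 * (8 + 20) * (2 ^ 20 * (|B| * Q))) * 2 ^ k
          * (5 ^ 20 * (1 + 2 ^ k * nrm x)⁻¹ ^ 20) :=
        mul_le_mul_of_nonneg_left w4 (by positivity)
    _ = _ := by
        have : (4:ℝ) ^ k = 2 ^ k * 2 ^ k := by
          rw [← mul_pow]; norm_num
        rw [hQ, this]
        ring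

end Vale.Agent.P091.CH.H420
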