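import Vale.Agent.P091.CH.H420.Ker

/-!
# Explicit symbols for the discretisation (helper420)

`θ` = `Real.smoothTransition`; the symbols of the telescoping
`θ_k(ξ) = θ((N / 2^k - 3) - ξ / 2^k)`, `ψ_{k,l}`, `ψt_{k,l}`.
-/

open Finset

namespace Vale.Agent.P091.CH.H420

/-! ## finite differences of smooth functions -/

lemma fwd_deriv (h : ℝ) : ∀ (n : ℕ) (g : ℝ → ℝ), Differentiable ℝ g →
    Differentiable ℝ ((fwdDiff h)^[n] g) ∧
      deriv ((fwdDiff h)^[n] g) = (fwdDiff h)^[n] (deriv g) := by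
  intro n
  induction n with
  | zero => intro g hg; exact ⟨hg, rfl⟩
  | succ n ih =>
    intro g hg
    rw [Function.iterate_succ, Function.comp_apply, Function.comp_apply]
    have h1 : Differentiable ℝ (fun t => g (t + h)) :=
      hg.comp (differentiable_id.add_const h)
    have h2 : Differentiable ℝ (fwdDiff h g) := h1.sub hg
    have h3 : deriv (fwdDiff h g) = fwdDiff h (deriv g) := by
      funext t
      unfold fwdDiff
      rw [deriv_fun_sub (h1 t) (hg t), deriv_comp_add_const]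
    obtain ⟨a, b⟩ := ih _ h2
    exact ⟨a, by rw [b, h3]⟩

lemma fwd_le (h M : ℝ) (hM : 0 ≤ M) : ∀ (n : ℕ) (g : ℝ → ℝ), ContDiff ℝ n g →
    (∀ t, |iteratedDeriv n g t| ≤ M) → ∀ t, |(fwdDiff h)^[n] g t| ≤ M * |h| ^ n := by
  intro n
  induction n with
  | zero =>
    intro g _ hb t
    simpa using hb t
  | succ n ih =>
    intro g hg hb t
    have hd : Differentiable ℝ g := hg.differentiable (by norm_cast)
    obtain ⟨h1, h2⟩ := fwd_deriv h n g hd
    have h3 : ContDiff ℝ n (deriv g) := by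
      have := (contDiff_succ_iff_deriv (n := n) (f := g)).1 (by exact_mod_cast hg)
      exact this.2.2
    have h4 : ∀ s, |(fwdDiff h)^[n] (deriv g) s| ≤ M * |h| ^ n := by
      apply ih _ h3
      intro s
      have := hb s
      rwa [iteratedDeriv_succ'] at this
    rw [Function.iterate_succ', Function.comp_apply]
    have h5 := Convex.norm_image_sub_le_of_norm_deriv_le (𝕜 := ℝ) (f := (fwdDiff h)^[n] g)
      (C := M * |h| ^ n) (s := Set.univ) (x := t) (y := t + h)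
      (fun x _ => h1 x) (fun x _ => by rw [h2]; exact h4 x) convex_univ trivial trivial
    have h6 : t + h - t = h := by ring
    rw [h6] at h5
    simp only [Real.norm_eq_abs] at h5
    unfold fwdDiff
    refine h5.trans (le_of_eq ?_)
    rw [pow_succ]; ring

/-- iterated derivatives of the smooth transition are bounded -/
lemma exists_bound (n : ℕ) : ∃ M : ℝ, 0 ≤ M ∧
    ∀ t, |iteratedDeriv n Real.smoothTransition t| ≤ M := by
  have hc : Continuous (iteratedDeriv n Real.smoothTransition) :=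
    (Real.smoothTransition.contDiff (n := (n : ℕ∞))).continuous_iteratedDeriv n le_rfl
  obtain ⟨M, hM⟩ := (isCompact_Icc (a := (-1:ℝ)) (b := 2)).exists_bound_of_continuousOn
    hc.continuousOn
  refine ⟨max M 1, by positivity, fun t => ?_⟩
  rcases lt_or_ge t 0 with h0 | h0
  · have h1 : Real.smoothTransition =ᶠ[nhds t] (fun _ => (0:ℝ)) := by
      filter_upwards [Iio_mem_nhds h0] with s hs
      exact Real.smoothTransition.zero_of_nonpos (le_of_lt hs)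
    rw [h1.iteratedDeriv_eq n, iteratedDeriv_const]
    split_ifs <;> simp
  rcases lt_or_ge 1 t with h2 | h2
  · have h1 : Real.smoothTransition =ᶠ[nhds t] (fun _ => (1:ℝ)) := by
      filter_upwards [Ioi_mem_nhds h2] with s hs
      exact Real.smoothTransition.one_of_one_le (le_of_lt hs)
    rw [h1.iteratedDeriv_eq n, iteratedDeriv_const]
    split_ifs <;> simp
  · have := hM t ⟨by linarith, by linarith⟩
    rw [Real.norm_eq_abs] at this
    exact this.trans (le_max_left _ _)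

/-- uniform bound for the first 20 finite differences of the smooth transition -/
lemma exists_fwd_bound : ∃ M : ℝ, 0 ≤ M ∧ ∀ i ≤ 20, ∀ h t : ℝ,
    |(fwdDiff h)^[i] Real.smoothTransition t| ≤ M * |h| ^ i := by
  choose M hM0 hM using exists_bound
  refine ⟨∑ i ∈ range 21, M i, Finset.sum_nonneg fun i _ => hM0 i, fun i hi h t => ?_⟩
  have h1 := fwd_le h (M i) (hM0 i) i Real.smoothTransition
    (Real.smoothTransition.contDiff (n := (i : ℕ∞))) (hM i) t
  refine h1.trans ?_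
  apply mul_le_mul_of_nonneg_right _ (by positivity)
  exact Finset.single_le_sum (f := M) (fun j _ => hM0 j) (Finset.mem_range.2 (by omega))

/-! ## affine symbols -/

/-- `ξ ↦ θ(a + b ξ)` as a complex function on `ℤ` -/
noncomputable def aff (a b : ℝ) (ξ : ℤ) : ℂ := ((Real.smoothTransition (a + b * ξ) : ℝ) : ℂ)

lemma fwd_aff (a b : ℝ) (i : ℕ) (ξ : ℤ) : (fwdDiff (1:ℤ))^[i] (aff a b) ξ
    = (((fwdDiff b)^[i] Real.smoothTransition (a + b * ξ) : ℝ) : ℂ) := by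
  have : ∀ (g : ℝ → ℝ) (i : ℕ), ∀ ξ : ℤ, (fwdDiff (1:ℤ))^[i] (fun ξ : ℤ => ((g (a + b * ξ) : ℝ) : ℂ)) ξ
      = (((fwdDiff b)^[i] g (a + b * ξ) : ℝ) : ℂ) := by
    intro g i
    induction i generalizing g with
    | zero => intro ξ; rfl
    | succ i ih =>
      intro ξ
      rw [Function.iterate_succ, Function.comp_apply, Function.iterate_succ, Function.comp_apply,
        ← ih]
      refine congrFun (congrArg _ ?_) ξ
      funext η
      unfold fwdDiff
      push_cast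
      have e : a + b * ((η : ℝ) + 1) = a + b * η + b := by ring
      rw [e]
  exact this _ i ξ

lemma norm_fwd_aff {M : ℝ} (hM : ∀ i ≤ 20, ∀ h t : ℝ,
    |(fwdDiff h)^[i] Real.smoothTransition t| ≤ M * |h| ^ i) (hM0 : 0 ≤ M) {k : ℕ} {b : ℝ}
    (hb : |b| ≤ ((2:ℝ) ^ k)⁻¹) (a : ℝ) (i : ℕ) (hi : i ≤ 20) (ξ : ℤ) :
    ‖(fwdDiff (1:ℤ))^[i] (aff a b) ξ‖ ≤ M * ((2:ℝ) ^ (k * i))⁻¹ := by
  rw [fwd_aff, Complex.norm_real, Real.norm_eq_abs]
  refine (hM i hi b _).trans ?_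
  apply mul_le_mul_of_nonneg_left _ hM0
  rw [pow_mul, ← inv_pow]
  exact pow_le_pow_left₀ (abs_nonneg b) hb i

lemma fwd_sub (p q : ℤ → ℂ) (i : ℕ) : (fwdDiff (1:ℤ))^[i] (fun ξ => p ξ - q ξ)
    = fun ξ => (fwdDiff (1:ℤ))^[i] p ξ - (fwdDiff (1:ℤ))^[i] q ξ := by
  induction i generalizing p q with
  | zero => rfl
  | succ i ih =>
    rw [Function.iterate_succ, Function.comp_apply, Function.comp_apply, Function.comp_apply, ← ih]
    congr 1
    funext ξ
    unfold fwdDiff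
    ring

/-- difference of two affine symbols of scale `k` -/
lemma norm_fwd_sub_aff {M : ℝ} (hM : ∀ i ≤ 20, ∀ h t : ℝ,
    |(fwdDiff h)^[i] Real.smoothTransition t| ≤ M * |h| ^ i) (hM0 : 0 ≤ M) {k : ℕ} {b b' : ℝ}
    (hb : |b| ≤ ((2:ℝ) ^ k)⁻¹) (hb' : |b'| ≤ ((2:ℝ) ^ k)⁻¹) (a a' : ℝ) (i : ℕ) (hi : i ≤ 20)
    (ξ : ℤ) :
    ‖(fwdDiff (1:ℤ))^[i] (fun ξ => aff a b ξ - aff a' b' ξ) ξ‖
      ≤ (2 * M) * ((2:ℝ) ^ (k * i))⁻¹ := by
  rw [fwd_sub]
  refine (norm_sub_le _ _).trans ?_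
  have h1 := norm_fwd_aff hM hM0 hb a i hi ξ
  have h2 := norm_fwd_aff hM hM0 hb' a' i hi ξ
  calc _ ≤ M * ((2:ℝ) ^ (k * i))⁻¹ + M * ((2:ℝ) ^ (k * i))⁻¹ := add_le_add h1 h2
    _ = _ := by ring

/-! ## the symbols of the telescoping -/

/-- smooth step at `c = (l-3) 2^k` of width `2^k`: `1` for `ξ ≤ c - 2^k`, `0` for `ξ ≥ c` -/
noncomputable def stp (k : ℕ) (l : ℤ) (ξ : ℤ) : ℂ :=
  aff ((l - 3 : ℤ) : ℝ) (-((2:ℝ) ^ k)⁻¹) ξ

/-- `ψ_{k,l} = θ_k - θ_{k+1}` -/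
noncomputable def psi (k : ℕ) (l : ℤ) (ξ : ℤ) : ℂ := stp k l ξ - stp (k + 1) (l / 2) ξ

/-- the second symbol, `= 1` on the support of `psi` -/
noncomputable def psit (k : ℕ) (l : ℤ) (ξ : ℤ) : ℂ :=
  aff (-((l - 10 : ℤ) : ℝ)) (((2:ℝ) ^ k)⁻¹) ξ - aff (-((l - 3 : ℤ) : ℝ)) (((2:ℝ) ^ k)⁻¹) ξ

lemma aff_one {a b : ℝ} {ξ : ℤ} (h : 1 ≤ a + b * ξ) : aff a b ξ = 1 := by
  unfold aff
  rw [Real.smoothTransition.one_of_one_le h]; simp

lemma aff_zero {a b : ℝ} {ξ : ℤ} (h : a + b * ξ ≤ 0) : aff a b ξ = 0 := by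
  unfold aff
  rw [Real.smoothTransition.zero_of_nonpos h]; simp

lemma scale_le {k : ℕ} {c ξ : ℤ} (h : c * 2 ^ k ≤ ξ) : (c : ℝ) ≤ ((2:ℝ) ^ k)⁻¹ * ξ := by
  have h1 : ((c * 2 ^ k : ℤ) : ℝ) ≤ ξ := by exact_mod_cast h
  push_cast at h1
  rw [inv_mul_eq_div, le_div_iff₀ (by positivity)]
  exact h1

lemma le_scale {k : ℕ} {c ξ : ℤ} (h : ξ ≤ c * 2 ^ k) : ((2:ℝ) ^ k)⁻¹ * ξ ≤ (c : ℝ) := by
  have h1 : (ξ : ℝ) ≤ ((c * 2 ^ k : ℤ) : ℝ) := by exact_mod_cast h
  push_cast at h1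
  rw [inv_mul_eq_div, div_le_iff₀ (by positivity)]
  exact h1

lemma stp_one {k : ℕ} {l ξ : ℤ} (h : ξ ≤ (l - 4) * 2 ^ k) : stp k l ξ = 1 := by
  apply aff_one
  have := le_scale h
  push_cast at this ⊢
  linarith

lemma stp_zero {k : ℕ} {l ξ : ℤ} (h : (l - 3) * 2 ^ k ≤ ξ) : stp k l ξ = 0 := by
  apply aff_zero
  have := scale_le h
  push_cast at this ⊢
  linarith

lemma psi_zero_left {k : ℕ} {l ξ : ℤ} (h : ξ ≤ (l - 9) * 2 ^ k) : psi k l ξ = 0 := by
  have k0 : (0:ℤ) < 2 ^ k := by positivity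
  unfold psi
  rw [stp_one (by nlinarith), stp_one, sub_self]
  have h2 : l - 9 ≤ (l / 2 - 4) * 2 := by omega
  calc ξ ≤ (l - 9) * 2 ^ k := h
    _ ≤ ((l / 2 - 4) * 2) * 2 ^ k := mul_le_mul_of_nonneg_right h2 k0.le
    _ = _ := by rw [pow_succ]; ring

lemma psi_zero_right {k : ℕ} {l ξ : ℤ} (h : (l - 3) * 2 ^ k ≤ ξ) : psi k l ξ = 0 := by
  have k0 : (0:ℤ) < 2 ^ k := by positivity
  unfold psi
  rw [stp_zero h, stp_zero, sub_self]
  have h2 : (l / 2 - 3) * 2 ≤ l - 3 := by omega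
  calc (l / 2 - 3) * 2 ^ (k + 1) = ((l / 2 - 3) * 2) * 2 ^ k := by rw [pow_succ]; ring
    _ ≤ (l - 3) * 2 ^ k := mul_le_mul_of_nonneg_right h2 k0.le
    _ ≤ ξ := h

lemma psit_one {k : ℕ} {l ξ : ℤ} (h1 : (l - 9) * 2 ^ k ≤ ξ) (h2 : ξ ≤ (l - 3) * 2 ^ k) :
    psit k l ξ = 1 := by
  unfold psit
  rw [aff_one, aff_zero, sub_zero]
  · have := le_scale h2
    push_cast at this ⊢
    linarith
  · have := scale_le h1
    push_cast at this ⊢
    linarith

lemma psi_mul_psit (k : ℕ) (l ξ : ℤ) : psi k l ξ * psit k l ξ = psi k l ξ := by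
  by_cases h1 : ξ ≤ (l - 9) * 2 ^ k
  · rw [psi_zero_left h1, zero_mul]
  by_cases h2 : (l - 3) * 2 ^ k ≤ ξ
  · rw [psi_zero_right h2, zero_mul]
  rw [psit_one (by omega) (by omega), mul_one]

lemma abs_inv_two_pow (k : ℕ) : |((2:ℝ) ^ k)⁻¹| = ((2:ℝ) ^ k)⁻¹ := abs_of_pos (by positivity)

lemma inv_two_pow_succ_le (k : ℕ) : ((2:ℝ) ^ (k + 1))⁻¹ ≤ ((2:ℝ) ^ k)⁻¹ := by
  apply inv_anti₀ (by positivity)
  exact pow_le_pow_right₀ (by norm_num) (by omega)

theorem isSym_psi {M : ℝ} (hM : ∀ i ≤ 20, ∀ h t : ℝ,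
    |(fwdDiff h)^[i] Real.smoothTransition t| ≤ M * |h| ^ i) (hM0 : 0 ≤ M) :
    IsSym (2 * M) psi := by
  intro k l
  have k0 : (0:ℤ) < 2 ^ k := by positivity
  refine ⟨?_, ?_⟩
  · rintro ξ (h | h)
    · exact psi_zero_left (by nlinarith)
    · exact psi_zero_right (by nlinarith)
  · intro i hi ξ
    exact norm_fwd_sub_aff hM hM0 (k := k) (by rw [abs_neg, abs_inv_two_pow])
      (by rw [abs_neg, abs_inv_two_pow]; exact inv_two_pow_succ_le k) _ _ i hi ξ

theorem isSym_psit {M : ℝ} (hM : ∀ i ≤ 20, ∀ h t : ℝ,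
    |(fwdDiff h)^[i] Real.smoothTransition t| ≤ M * |h| ^ i) (hM0 : 0 ≤ M) :
    IsSym (2 * M) psit := by
  intro k l
  have k0 : (0:ℤ) < 2 ^ k := by positivity
  refine ⟨?_, ?_⟩
  · rintro ξ (h | h)
    · unfold psit
      rw [aff_zero, aff_zero, sub_zero]
      · have := le_scale (k := k) (c := l - 3) (ξ := ξ) (by nlinarith)
        push_cast at this ⊢
        linarith
      · have := le_scale (k := k) (c := l - 10) (ξ := ξ) (by nlinarith)
        push_cast at this ⊢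
        linarith
    · unfold psit
      rw [aff_one, aff_one, sub_self]
      · have := scale_le (k := k) (c := l - 2) (ξ := ξ) h
        push_cast at this ⊢
        linarith
      · have := scale_le (k := k) (c := l - 2) (ξ := ξ) h
        push_cast at this ⊢
        linarith
  · intro i hi ξ
    exact norm_fwd_sub_aff hM hM0 (k := k) (by rw [abs_inv_two_pow]) (by rw [abs_inv_two_pow])
      _ _ i hi ξ

/-- telescoping -/
lemma sum_psi (N ξ : ℤ) (κ : ℕ) :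
    ∑ k ∈ range κ, psi k (N / 2 ^ k) ξ = stp 0 N ξ - stp κ (N / 2 ^ κ) ξ := by
  induction κ with
  | zero => simp
  | succ κ ih =>
    rw [Finset.sum_range_succ, ih]
    unfold psi
    have : N / 2 ^ κ / 2 = N / 2 ^ (κ + 1) := by
      rw [Int.ediv_ediv_of_nonneg (by positivity), pow_succ]
    rw [this]
    ring

end Vale.Agent.P091.CH.H420
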